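import Vale.Agent.Lib.P075.Tree
import Vale.Agent.Lib.P075M.Main

/-!
# P075, question Q2 (Thiele's dyadic model of the triangular Hilbert form): affirmative answer

For all real bounded measurable `F_v`, compactly supported in `[0,∞)^2`, all finite `S ⊂ ℤ` and all
real `|ε_k| ≤ 1`,
`|Λ^d_{S,ε}(F_0,F_1,F_2)| ≤ (9√2/2) ‖F_0‖_3 ‖F_1‖_3 ‖F_2‖_3`.
In fact the sum of all `|L_𝐈|`, over all levels of `S` and all triples of `𝒜_k`, obeys the same bound.
-/

open Vale.Agent.Lib.P075M

namespace Vale.Agent.Results.P075.A0_Q2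

/-- Q2: a uniform bound with an absolute constant; the sums over `𝒜_k` converge absolutely (they have
finitely many nonzero terms), and the bound holds even with absolute values inside all the sums. -/
theorem result :
    ∃ C : ℝ, C = 9 * √2 / 2 ∧
      ∀ F0 F1 F2 : ℝ → ℝ → ℝ, Admissible F0 → Admissible F1 → Admissible F2 →
        ∀ S : Finset ℤ,
          (∀ k, Summable fun t : XorZero => |LI F0 F1 F2 k t.1|) ∧
          (∑ k ∈ S, ∑' t : XorZero, |LI F0 F1 F2 k t.1| ≤ C * (L3 F0 * L3 F1 * L3 F2)) ∧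
          ∀ ε : ℤ → ℝ, (∀ k, |ε k| ≤ 1) →
            |LamD F0 F1 F2 S ε| ≤ C * (L3 F0 * L3 F1 * L3 F2) :=
  ⟨_, rfl, fun _ _ _ h0 h1 h2 S =>
    main_of_discrete (C := 9 * √2 / 2) Vale.Agent.Lib.P075.discrete_main h0 h1 h2 S⟩

end Vale.Agent.Results.P075.A0_Q2
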